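import Vale.Agent.P032.Six

namespace Vale.Agent.Results.P032.AtLeastSix

theorem result (k : ℕ) (hk : k ≤ 5) (c : EuclideanSpace ℝ (Fin 2) → Fin k) :
    ∃ x y, dist x y = 1 ∧ c x = c y := by
  obtain ⟨x, y, hxy, hc⟩ :=
    Vale.Agent.P032.no_five_colouring_eucl (fun z => Fin.castLE hk (c z))
  exact ⟨x, y, hxy, Fin.castLE_injective hk hc⟩

end Vale.Agent.Results.P032.AtLeastSix
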