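import Vale.Agent.P032.Eucl

namespace Vale.Agent.Results.P032.OpenReduction

theorem result (k : ℕ) :
    (∃ c : EuclideanSpace ℝ (Fin 2) → Fin k, ∀ x y, dist x y = 1 → c x ≠ c y) ↔
      ∃ O : Fin k → Set (EuclideanSpace ℝ (Fin 2)), (∀ i, IsOpen (O i)) ∧
        (∀ i, ∀ x ∈ O i, ∀ y ∈ O i, dist x y ≠ 1) ∧ Dense (⋃ i, O i) :=
  Vale.Agent.P032.colour_iff_open k

end Vale.Agent.Results.P032.OpenReduction
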